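import Vale.Agent.P243.Main

open MeasureTheory

namespace Vale.Agent.Results.P243.Bang

section
variable {E : Type} [NormedAddCommGroup E] [InnerProductSpace ℝ E] [FiniteDimensional ℝ E]
  [MeasurableSpace E] [BorelSpace E]

/-- The hyperplane `u^⊥`. -/
noncomputable abbrev plane (u : E) : Submodule ℝ E := (ℝ ∙ u)ᗮ

/-- Euclidean (Lebesgue) area of a subset of `u^⊥`. -/
noncomputable def area (u : E) (B : Set (plane u)) : ENNReal := volume B

/-- `B ⊆ u^⊥` is measurable of finite area. -/
def IsBase (u : E) (B : Set (plane u)) : Prop := MeasurableSet B ∧ area u B < ⊤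

/-- Area of the orthogonal projection of `K` onto `u^⊥`. -/
noncomputable def projArea (K : Set E) (u : E) : ENNReal :=
  area u ((plane u).orthogonalProjectionOnto '' K)

/-- `A_min(K)`: the smallest area of an orthogonal projection of `K` onto a plane. -/
noncomputable def minArea (K : Set E) : ENNReal :=
  ⨅ u : {u : E // ‖u‖ = 1}, projArea K u

/-- The cylinder `B + ℝ u` with base `B ⊆ u^⊥`. -/
def cylinder (u : E) (B : Set (plane u)) : Set E :=
  {x | ∃ b ∈ B, ∃ t : ℝ, x = (b : E) + t • u}

/-- Compact convex set with nonempty interior. -/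
def IsConvexBody (K : Set E) : Prop := IsCompact K ∧ Convex ℝ K ∧ (interior K).Nonempty

/-- `(B i + ℝ (u i))_i` is a finite family of cylinders covering `K`. -/
def IsCylinderCover (K : Set E) {m : ℕ} (u : Fin m → E) (B : ∀ i, Set (plane (u i))) : Prop :=
  (∀ i, ‖u i‖ = 1) ∧ (∀ i, IsBase (u i) (B i)) ∧ K ⊆ ⋃ i, cylinder (u i) (B i)

end

theorem result :
    ∃ K : Set (EuclideanSpace ℝ (Fin 3)), IsConvexBody K ∧
      ∃ (m : ℕ) (u : Fin m → EuclideanSpace ℝ (Fin 3)) (B : ∀ i, Set (plane (u i))),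
        IsCylinderCover K u B ∧ minArea K < ⊤ ∧
        ∑ i, area (u i) (B i) < minArea K / 2 ∧
        ∑ i, area (u i) (B i) / projArea K (u i) < 1 / 2 := by
  open Vale.Agent.P243 in
  refine ⟨tet, ⟨tet_compact, tet_convex, tet_int⟩, Fintype.card (Bool × Fin NN),
    fun i => uu ((Fintype.equivFin _).symm i), fun i => BB ((Fintype.equivFin _).symm i),
    ⟨fun i => uu_norm _, fun i => ⟨(BB_compact _).measurableSet, (BB_compact _).measure_lt_top⟩,
    ?_⟩, ?_, ?_, ?_⟩
  · intro x hx
    obtain ⟨i, hi⟩ := Set.mem_iUnion.1 (Vale.Agent.P243.BB_cover hx)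
    refine Set.mem_iUnion.2 ⟨Fintype.equivFin _ i, ?_⟩
    have h : ∀ j, j = i → x ∈ cylinder (Vale.Agent.P243.uu j) (Vale.Agent.P243.BB j) := by
      rintro j rfl; exact hi
    exact h _ (Equiv.symm_apply_apply _ _)
  · refine (iInf_le _ ⟨EuclideanSpace.single 0 1, by simp⟩).trans_lt ?_
    exact (Vale.Agent.P243.tet_compact.image (ContinuousLinearMap.continuous _)).measure_lt_top
  · unfold area
    rw [Equiv.sum_comp (Fintype.equivFin _).symm (fun i => volume (Vale.Agent.P243.BB i))]
    refine Vale.Agent.P243.BB_sum.trans_le ?_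
    have h2 : ENNReal.ofReal √2 * 2 = ENNReal.ofReal (2 * √2) := by
      rw [ENNReal.ofReal_mul (by norm_num), ENNReal.ofReal_ofNat, mul_comm]
    rw [ENNReal.le_div_iff_mul_le (by simp) (by simp), h2]
    exact le_iInf fun u => Vale.Agent.P243.tet_lower u.1 u.2
  · unfold area
    rw [Equiv.sum_comp (Fintype.equivFin _).symm (fun i => volume (Vale.Agent.P243.BB i) /
      projArea Vale.Agent.P243.tet (Vale.Agent.P243.uu i))]
    have h0 : ENNReal.ofReal (2 * √2) ≠ 0 := by simp
    calc _ ≤ ∑ i, volume (Vale.Agent.P243.BB i) / ENNReal.ofReal (2 * √2) :=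
          Finset.sum_le_sum fun i _ => ENNReal.div_le_div_left
            (Vale.Agent.P243.tet_lower _ (Vale.Agent.P243.uu_norm i)) _
      _ = (∑ i, volume (Vale.Agent.P243.BB i)) / ENNReal.ofReal (2 * √2) := by
          simp only [div_eq_mul_inv, Finset.sum_mul]
      _ < 1 / 2 := by
          rw [ENNReal.div_lt_iff (Or.inl h0) (Or.inl ENNReal.ofReal_ne_top)]
          refine Vale.Agent.P243.BB_sum.trans_le (le_of_eq ?_)
          rw [ENNReal.ofReal_mul (by norm_num), ENNReal.ofReal_ofNat, ← mul_assoc, one_div,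
            ENNReal.inv_mul_cancel (by simp) (by simp), one_mul]

end Vale.Agent.Results.P243.Bang
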